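import Mathlib

/-!
# P100: the Henon-Lane-Emden system has no positive entire solution with a separable component

For all parameters and all dimensions `n ≥ 2`, there is no positive entire solution `(u, v)` whose
component `u` is a sum, or a product, of functions of the single coordinates.
-/

open Finset Function

namespace Vale.Agent.Results.P100.SeparableSolutions

/-- The sum of the pure second partial derivatives of `u` at `x`
(the Laplacian of `u` at `x` when `u` is twice continuously differentiable near `x`). -/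
noncomputable def lap {n : ℕ} (u : (Fin n → ℝ) → ℝ) (x : Fin n → ℝ) : ℝ :=
  ∑ i, deriv (deriv (fun t => u (update x i t))) (x i)

theorem sum_upd1 {n : ℕ} (φ : Fin n → ℝ → ℝ) (x : Fin n → ℝ) (i : Fin n) (t : ℝ) :
    ∑ k, φ k (update x i t k) = φ i t + ∑ k ∈ univ.erase i, φ k (x k) := by
  rw [← add_sum_erase univ _ (mem_univ i), update_self]
  congr 1
  exact sum_congr rfl (fun k hk => by rw [update_of_ne (mem_erase.1 hk).1])

theorem prod_upd1 {n : ℕ} (φ : Fin n → ℝ → ℝ) (x : Fin n → ℝ) (i : Fin n) (t : ℝ) :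
    ∏ k, φ k (update x i t k) = φ i t * ∏ k ∈ univ.erase i, φ k (x k) := by
  rw [← mul_prod_erase univ _ (mem_univ i), update_self]
  congr 1
  exact prod_congr rfl (fun k hk => by rw [update_of_ne (mem_erase.1 hk).1])

/-- the Laplacian of a sum of functions of one coordinate -/
theorem lap_sum {n : ℕ} (f : Fin n → ℝ → ℝ) (u : (Fin n → ℝ) → ℝ)
    (hu : ∀ x, u x = ∑ i, f i (x i)) (x : Fin n → ℝ) :
    lap u x = ∑ i, deriv (deriv (f i)) (x i) := by
  unfold lap
  refine sum_congr rfl (fun i _ => ?_)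
  have h1 : (fun t => u (update x i t)) = fun t => f i t + ∑ k ∈ univ.erase i, f k (x k) := by
    funext t; rw [hu, sum_upd1]
  have h2 : deriv (fun t => f i t + ∑ k ∈ univ.erase i, f k (x k)) = deriv (f i) := by
    funext t; exact deriv_add_const _
  rw [h1, h2]

/-- the Laplacian of a product of functions of one coordinate -/
theorem lap_prod {n : ℕ} (g : Fin n → ℝ → ℝ) (u : (Fin n → ℝ) → ℝ)
    (hu : ∀ x, u x = ∏ i, g i (x i)) (x : Fin n → ℝ) :
    lap u x = ∑ i, deriv (deriv (g i)) (x i) * ∏ k ∈ univ.erase i, g k (x k) := by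
  unfold lap
  refine sum_congr rfl (fun i _ => ?_)
  have h1 : (fun t => u (update x i t)) = fun t => g i t * ∏ k ∈ univ.erase i, g k (x k) := by
    funext t; rw [hu, prod_upd1]
  have h2 : deriv (fun t => g i t * ∏ k ∈ univ.erase i, g k (x k))
      = fun t => deriv (g i) t * ∏ k ∈ univ.erase i, g k (x k) := by
    funext t; exact deriv_mul_const_field _
  rw [h1, h2, deriv_mul_const_field]

/-- no positive function on the line has a strictly decreasing derivative -/
theorem no_pos_of_strictAnti (w : ℝ → ℝ) (hd : Differentiable ℝ w)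
    (hanti : StrictAnti (deriv w)) (hpos : ∀ t, 0 < w t) : False := by
  by_cases h0 : deriv w 0 < 0
  · set c := deriv w 0 with hc
    have key : ∀ T, 0 ≤ T → w T - w 0 ≤ c * (T - 0) := by
      intro T hT
      refine Convex.image_sub_le_mul_sub_of_deriv_le (convex_Ici (0 : ℝ))
        hd.continuous.continuousOn hd.differentiableOn (fun x hx => ?_) 0 (by simp) T hT hT
      rw [interior_Ici] at hx
      exact (hanti hx).le
    have hT : 0 ≤ w 0 / (-c) := div_nonneg (hpos 0).le (by linarith)
    have h1 := key _ hT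
    have h2 : c * (w 0 / (-c) - 0) = - w 0 := by
      have : c ≠ 0 := ne_of_lt h0
      field_simp
      ring
    have h3 := hpos (w 0 / (-c))
    linarith
  · have hc : 0 < deriv w (-1) :=
      lt_of_le_of_lt (not_lt.1 h0) (hanti (by norm_num : (-1 : ℝ) < 0))
    set c := deriv w (-1) with hcdef
    have key : ∀ T, T ≤ -1 → c * (-1 - T) ≤ w (-1) - w T := by
      intro T hT
      refine Convex.mul_sub_le_image_sub_of_le_deriv (convex_Iic (-1 : ℝ))
        hd.continuous.continuousOn hd.differentiableOn (fun x hx => ?_) T hT (-1) (by simp) hT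
      rw [interior_Iic] at hx
      exact (hanti hx).le
    have hT : -1 - w (-1) / c ≤ -1 := by
      have : 0 ≤ w (-1) / c := div_nonneg (hpos _).le hc.le
      linarith
    have h1 := key _ hT
    have h2 : c * (-1 - (-1 - w (-1) / c)) = w (-1) := by
      have : c ≠ 0 := ne_of_gt hc
      field_simp
      ring
    have h3 := hpos (-1 - w (-1) / c)
    linarith

/-- no positive twice continuously differentiable function on the line has a negative second
derivative off the origin -/
theorem no_pos_concave (w : ℝ → ℝ) (hw : ContDiff ℝ 2 w)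
    (h2 : ∀ t, t ≠ 0 → deriv (deriv w) t < 0) (hpos : ∀ t, 0 < w t) : False := by
  have hd : Differentiable ℝ w := hw.differentiable (by norm_num)
  have hc : Continuous (deriv w) := hw.continuous_deriv (by norm_num)
  have hL : StrictAntiOn (deriv w) (Set.Iic 0) :=
    strictAntiOn_of_deriv_neg (convex_Iic 0) hc.continuousOn
      (fun x hx => h2 x (by rw [interior_Iic] at hx; exact ne_of_lt hx))
  have hR : StrictAntiOn (deriv w) (Set.Ici 0) :=
    strictAntiOn_of_deriv_neg (convex_Ici 0) hc.continuousOn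
      (fun x hx => h2 x (by rw [interior_Ici] at hx; exact ne_of_gt hx))
  exact no_pos_of_strictAnti w hd (hL.Iic_union_Ici hR) hpos

/-- restriction of `u` to a coordinate line through the all-ones point is smooth -/
theorem line_contDiff {n : ℕ} (hn : 2 ≤ n) (u : (Fin n → ℝ) → ℝ)
    (hu2 : ContDiffOn ℝ 2 u {0}ᶜ) (i : Fin n) :
    ContDiff ℝ 2 (fun t => u (update (fun _ => (1 : ℝ)) i t)) := by
  have hmaps : ∀ t : ℝ, update (fun _ : Fin n => (1 : ℝ)) i t ∈ ({0}ᶜ : Set (Fin n → ℝ)) := by
    intro t h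
    obtain ⟨k, hk⟩ : ∃ k : Fin n, k ≠ i := by
      by_cases h0 : i = ⟨0, by omega⟩
      · exact ⟨⟨1, by omega⟩, by rw [h0]; simp [Fin.ext_iff]⟩
      · exact ⟨⟨0, by omega⟩, fun h => h0 h.symm⟩
    have := congrFun h k
    rw [update_of_ne hk] at this
    simp at this
  rw [← contDiffOn_univ]
  exact hu2.comp (contDiff_update 2 _ i).contDiffOn (fun t _ => hmaps t)

theorem additive_case {n : ℕ} (hn : 2 ≤ n) (u : (Fin n → ℝ) → ℝ)
    (hu2 : ContDiffOn ℝ 2 u {0}ᶜ) (hpos : ∀ x, 0 < u x)
    (hlap : ∀ x, x ≠ 0 → lap u x < 0)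
    (f : Fin n → ℝ → ℝ) (hu : ∀ x, u x = ∑ i, f i (x i)) : False := by
  have hf2 : ∀ i, ContDiff ℝ 2 (f i) := by
    intro i
    have h := line_contDiff hn u hu2 i
    have : f i = fun t => u (update (fun _ => (1 : ℝ)) i t) - ∑ k ∈ univ.erase i, f k 1 := by
      funext t; rw [hu, sum_upd1]; ring
    rw [this]
    exact h.sub contDiff_const
  set i0 : Fin n := ⟨0, by omega⟩ with hi0
  set i1 : Fin n := ⟨1, by omega⟩ with hi1
  have h01 : i1 ≠ i0 := by simp [hi0, hi1, Fin.ext_iff]
  set a : Fin n → ℝ := update 0 i0 1 with ha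
  have hne : ∀ t : ℝ, (fun k => a k + t) ≠ 0 := by
    intro t h
    have e0 := congrFun h i0
    have e1 := congrFun h i1
    simp only [ha, update_self, update_of_ne h01, Pi.zero_apply] at e0 e1
    linarith
  have hd1 : ∀ k, Differentiable ℝ (f k) := fun k => (hf2 k).differentiable (by norm_num)
  have hd2 : ∀ k, Differentiable ℝ (deriv (f k)) := fun k =>
    ((contDiff_succ_iff_deriv (n := 1)).1 (hf2 k)).2.2.differentiable (by norm_num)
  set w : ℝ → ℝ := fun t => ∑ k, f k (a k + t) with hw
  have hwu : ∀ t, w t = u (fun k => a k + t) := fun t => (hu _).symm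
  have hw2 : ContDiff ℝ 2 w :=
    ContDiff.sum (fun k _ => (hf2 k).comp (contDiff_const.add contDiff_id))
  have hder1 : deriv w = fun t => ∑ k, deriv (f k) (a k + t) := by
    funext t
    have hdk : ∀ k ∈ (univ : Finset (Fin n)), DifferentiableAt ℝ (fun t => f k (a k + t)) t := by
      intro k _
      have := hd1 k
      fun_prop
    rw [hw, deriv_fun_sum hdk]
    exact sum_congr rfl (fun k _ => deriv_comp_const_add _ _ _)
  have hder2 : ∀ t, deriv (deriv w) t = ∑ k, deriv (deriv (f k)) (a k + t) := by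
    intro t
    have hdk : ∀ k ∈ (univ : Finset (Fin n)),
        DifferentiableAt ℝ (fun t => deriv (f k) (a k + t)) t := by
      intro k _
      have := hd2 k
      fun_prop
    rw [hder1, deriv_fun_sum hdk]
    exact sum_congr rfl (fun k _ => deriv_comp_const_add _ _ _)
  refine no_pos_concave w hw2 (fun t _ => ?_) (fun t => by rw [hwu]; exact hpos _)
  rw [hder2, ← lap_sum f u hu (fun k => a k + t)]
  exact hlap _ (hne t)

theorem multiplicative_case {n : ℕ} (hn : 2 ≤ n) (u : (Fin n → ℝ) → ℝ)
    (hu2 : ContDiffOn ℝ 2 u {0}ᶜ) (hpos : ∀ x, 0 < u x)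
    (hlap : ∀ x, x ≠ 0 → lap u x < 0)
    (g : Fin n → ℝ → ℝ) (hu : ∀ x, u x = ∏ i, g i (x i)) : False := by
  have hnz : ∀ i t, g i t ≠ 0 := by
    intro i t h
    have h1 := hpos (update 0 i t)
    rw [hu, prod_upd1, h, zero_mul] at h1
    exact lt_irrefl _ h1
  have hg2 : ∀ i, ContDiff ℝ 2 (g i) := by
    intro i
    have h := line_contDiff hn u hu2 i
    have hE : ∏ k ∈ univ.erase i, g k 1 ≠ 0 := prod_ne_zero_iff.2 (fun k _ => hnz k 1)
    have : g i = fun t => u (update (fun _ => (1 : ℝ)) i t) * (∏ k ∈ univ.erase i, g k 1)⁻¹ := by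
      funext t; rw [hu, prod_upd1]; field_simp
    rw [this]
    exact h.mul contDiff_const
  set φ : Fin n → ℝ → ℝ := fun k t => deriv (deriv (g k)) t / g k t with hφ
  have hl : ∀ x, lap u x = u x * ∑ k, φ k (x k) := by
    intro x
    rw [lap_prod g u hu, mul_sum]
    refine sum_congr rfl (fun k _ => ?_)
    rw [hu, ← mul_prod_erase univ _ (mem_univ k)]
    have := hnz k (x k)
    simp only [hφ]
    field_simp
  have hsum : ∀ x : Fin n → ℝ, x ≠ 0 → ∑ k, φ k (x k) < 0 := by
    intro x hx
    have h1 := hlap x hx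
    rw [hl] at h1
    by_contra h2
    exact absurd h1 (not_lt.2 (mul_nonneg (hpos x).le (not_lt.1 h2)))
  obtain ⟨i, hi⟩ : ∃ i, ∀ t, t ≠ 0 → φ i t < 0 := by
    by_contra hcon
    push Not at hcon
    choose t ht0 ht using hcon
    have hx : t ≠ 0 := fun h => ht0 ⟨0, by omega⟩ (congrFun h _)
    exact absurd (hsum t hx) (not_lt.2 (sum_nonneg (fun k _ => ht k)))
  have hcont : Continuous (g i) := (hg2 i).continuous
  have hsign : (∀ t, 0 < g i t) ∨ (∀ t, g i t < 0) := by
    by_contra hcon
    push Not at hcon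
    obtain ⟨⟨s, hs⟩, ⟨t, ht⟩⟩ := hcon
    obtain ⟨r, hr⟩ := mem_range_of_exists_le_of_exists_ge hcont ⟨s, hs⟩ ⟨t, ht⟩
    exact hnz i r hr
  rcases hsign with hp | hm
  · refine no_pos_concave (g i) (hg2 i) (fun t ht => ?_) hp
    have h1 := hi t ht
    simp only [hφ] at h1
    exact (div_neg_iff.1 h1).resolve_left (fun h => absurd h.2 (not_lt.2 (hp t).le)) |>.1
  · refine no_pos_concave (fun t => - g i t) (hg2 i).neg (fun t ht => ?_)
      (fun t => by have := hm t; linarith)
    have h1 := hi t ht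
    simp only [hφ] at h1
    have h2 : 0 < deriv (deriv (g i)) t :=
      (div_neg_iff.1 h1).resolve_right (fun h => absurd h.2 (not_lt.2 (hm t).le)) |>.1
    have e1 : deriv (fun t => - g i t) = fun t => - deriv (g i) t := by
      funext s; exact deriv.fun_neg
    rw [e1, deriv.fun_neg]
    linarith

/-- For every dimension `n ≥ 2` and all real parameters `p`, `A`: there is no pair of positive
functions `u`, `v` on `ℝ^n`, with `u` twice continuously differentiable off the origin, solving
`-Δ u = |x|^A v^p` off the origin, such that `u` is a sum or a product of functions of the single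
coordinates. -/
theorem result (n : ℕ) (hn : 2 ≤ n) (p A : ℝ) (u v : (Fin n → ℝ) → ℝ)
    (hu2 : ContDiffOn ℝ 2 u {0}ᶜ)
    (hupos : ∀ x, 0 < u x) (hvpos : ∀ x, 0 < v x)
    (heq : ∀ x, x ≠ 0 → - lap u x = Real.sqrt (∑ i, x i ^ 2) ^ A * v x ^ p)
    (hsep : (∃ f : Fin n → ℝ → ℝ, ∀ x, u x = ∑ i, f i (x i)) ∨
      (∃ g : Fin n → ℝ → ℝ, ∀ x, u x = ∏ i, g i (x i))) : False := by
  have hlap : ∀ x, x ≠ 0 → lap u x < 0 := by
    intro x hx
    have h1 : 0 < ∑ i, x i ^ 2 := by
      obtain ⟨k, hk⟩ : ∃ k, x k ≠ 0 := by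
        by_contra hcon
        push Not at hcon
        exact hx (funext hcon)
      exact sum_pos' (fun i _ => sq_nonneg _) ⟨k, mem_univ k, by positivity⟩
    have h2 : 0 < Real.sqrt (∑ i, x i ^ 2) ^ A * v x ^ p :=
      mul_pos (Real.rpow_pos_of_pos (Real.sqrt_pos.2 h1) _) (Real.rpow_pos_of_pos (hvpos x) _)
    have := heq x hx
    linarith
  rcases hsep with ⟨f, hf⟩ | ⟨g, hg⟩
  · exact additive_case hn u hu2 hupos hlap f hf
  · exact multiplicative_case hn u hu2 hupos hlap g hg

end Vale.Agent.Results.P100.SeparableSolutions
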